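import Vale.Agent.P088.R2.H747.S.SemW3
import Vale.Agent.P088.R2.H551.E.Cur

/-!
# P088, stage 3: localisation of a zone inequality

`zone_loc`: a zone inequality on the open set `Ω` with data `v₁', v₂', W', χ', mg', co'` gives the
zone inequality on `U ⊇ Ω` with data which agree with them on `Ω`, if `χ`, `mg`, `co` vanish off a
closed set `S` with `U ∩ S ⊆ Ω`.
-/

open MeasureTheory Set Filter
open scoped ContDiff Topology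

noncomputable section

namespace Vale.Agent.P088.R2.H808.Z

open Vale.Agent.P088.R2.H961.GW Vale.Agent.P088.R2.H960.W Vale.Agent.P088.R2.H644
open Vale.Agent.P088.R2.H551.E Vale.Agent.P088.R2.H747.SW

variable {E ι κ : Type*} [NormedAddCommGroup E] [NormedSpace ℝ E] [Fintype ι] [Fintype κ]

/-! ## Germs -/

section germ

variable {σ : Sl E ι} {τ : Sl E κ} {v v' v₁ v₁' v₂ v₂' W W' f f' g g' a a' b b' : E → ℝ} {z : E}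

omit [Fintype ι] in
theorem D_ev (σ : Sl E ι) (h : f' =ᶠ[𝓝 z] f) (i : ι) : σ.D i f' =ᶠ[𝓝 z] σ.D i f := by
  filter_upwards [h.eventually_nhds] with w hw using D_congr_nhds σ hw i

theorem G_ev (σ : Sl E ι) (h : f' =ᶠ[𝓝 z] f) (h' : g' =ᶠ[𝓝 z] g) :
    σ.Γ f' g' =ᶠ[𝓝 z] σ.Γ f g := by
  filter_upwards [eventually_all.2 fun i => D_ev σ h i, eventually_all.2 fun i => D_ev σ h' i]
    with w h1 h2
  unfold Sl.Γ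
  simp only [h1, h2]

theorem L_ev (σ : Sl E ι) (h : f' =ᶠ[𝓝 z] f) : σ.Λ f' =ᶠ[𝓝 z] σ.Λ f := by
  filter_upwards [eventually_all.2 fun i => eventually_all.2 fun j => D_ev σ (D_ev σ h j) i,
    eventually_all.2 fun i => D_ev σ h i] with w h1 h2
  unfold Sl.Λ
  simp only [h1, h2]

theorem F_ev (σ : Sl E ι) (h : W' =ᶠ[𝓝 z] W) : σ.F W' =ᶠ[𝓝 z] σ.F W := G_ev σ h h

theorem XX_ev (σ : Sl E ι) (h : W' =ᶠ[𝓝 z] W) (ha : a' =ᶠ[𝓝 z] a) :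
    Ch.XX σ W' a' z = Ch.XX σ W a z := by
  funext i
  unfold Ch.XX
  rw [ha.eq_of_nhds, (D_ev σ h i).eq_of_nhds, (D_ev σ ha i).eq_of_nhds]

theorem P_ev (σ : Sl E ι) (hv : v' =ᶠ[𝓝 z] v) (h : W' =ᶠ[𝓝 z] W) (ha : a' =ᶠ[𝓝 z] a) :
    σ.P v' W' a' z = σ.P v W a z := by
  have e0 := (L_ev σ ha).eq_of_nhds
  have e1 := (L_ev σ h).eq_of_nhds
  have e2 := (G_ev σ h ha).eq_of_nhds
  have e3 := (F_ev σ h).eq_of_nhds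
  unfold Sl.P Sl.K
  rw [e0, e1, e2, e3, ha.eq_of_nhds, hv.eq_of_nhds]

theorem sqd_ev (hv₁ : v₁' =ᶠ[𝓝 z] v₁) (hv₂ : v₂' =ᶠ[𝓝 z] v₂) (h : W' =ᶠ[𝓝 z] W)
    (ha : a' =ᶠ[𝓝 z] a) (hb : b' =ᶠ[𝓝 z] b) :
    sqd σ τ v₁' v₂' W' a' b' z = sqd σ τ v₁ v₂ W a b z := by
  unfold sqd
  rw [P_ev σ hv₁ h ha, P_ev τ hv₂ h hb, P_ev τ hv₂ h ha, P_ev σ hv₁ h hb]

theorem TH_ev (h : W' =ᶠ[𝓝 z] W) (A : ι → ℝ) (B : κ → ℝ) :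
    Ch.TH σ τ W' z A B = Ch.TH σ τ W z A B := by
  have d1 : ∀ i, σ.D i W' z = σ.D i W z := fun i => (D_ev σ h i).eq_of_nhds
  have d2 : ∀ i, τ.D i W' z = τ.D i W z := fun i => (D_ev τ h i).eq_of_nhds
  have d3 : ∀ i j, σ.D i (σ.D j W') z = σ.D i (σ.D j W) z := fun i j =>
    (D_ev σ (D_ev σ h j) i).eq_of_nhds
  have d4 : ∀ i j, τ.D i (τ.D j W') z = τ.D i (τ.D j W) z := fun i j =>
    (D_ev τ (D_ev τ h j) i).eq_of_nhds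
  have d5 : ∀ i j, σ.D i (τ.D j W') z = σ.D i (τ.D j W) z := fun i j =>
    (D_ev σ (D_ev τ h j) i).eq_of_nhds
  unfold Ch.TH Ch.Mc Sl.Hc
  simp only [d1, d2, d3, d4, d5]

theorem G2_ev (σ : Sl E ι) (h : W' =ᶠ[𝓝 z] W) : Ch.G2 σ W' z = Ch.G2 σ W z := by
  unfold Ch.G2
  rw [(L_ev σ (F_ev σ h)).eq_of_nhds, (G_ev σ h (L_ev σ h)).eq_of_nhds]

theorem M2_ev (h : W' =ᶠ[𝓝 z] W) : M2 σ τ W' W' z = M2 σ τ W W z := by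
  unfold M2
  have e : ∀ k l, σ.Γ (τ.D k W') (τ.D l W') z = σ.Γ (τ.D k W) (τ.D l W) z := fun k l =>
    (G_ev σ (D_ev τ h k) (D_ev τ h l)).eq_of_nhds
  simp only [e]

theorem X1_ev (σ : Sl E ι) (h : W' =ᶠ[𝓝 z] W) (hf : f' =ᶠ[𝓝 z] f) (ha : a' =ᶠ[𝓝 z] a) :
    Ch.X1 σ W' f' a' z = Ch.X1 σ W f a z := by
  unfold Ch.X1
  rw [ha.eq_of_nhds, (G_ev σ hf h).eq_of_nhds, (G_ev σ hf ha).eq_of_nhds]

theorem qs_ev (hv₁ : v₁' =ᶠ[𝓝 z] v₁) (hv₂ : v₂' =ᶠ[𝓝 z] v₂) (h : W' =ᶠ[𝓝 z] W)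
    (ha : a' =ᶠ[𝓝 z] a) (hb : b' =ᶠ[𝓝 z] b) :
    qs σ τ v₁' v₂' W' a' b' z = qs σ τ v₁ v₂ W a b z := by
  unfold qs
  rw [G2_ev σ h, G2_ev τ h, M2_ev h, X1_ev σ h (L_ev σ h) ha, X1_ev σ h (L_ev τ h) ha,
    X1_ev τ h (L_ev σ h) hb, X1_ev τ h (L_ev τ h) hb, (L_ev σ (L_ev σ h)).eq_of_nhds,
    (L_ev σ (L_ev τ h)).eq_of_nhds, (L_ev τ (L_ev τ h)).eq_of_nhds,
    (G_ev σ h hv₁).eq_of_nhds, (G_ev τ h hv₂).eq_of_nhds, ha.eq_of_nhds, hb.eq_of_nhds]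

theorem dn_ev (hv₁ : v₁' =ᶠ[𝓝 z] v₁) (hv₂ : v₂' =ᶠ[𝓝 z] v₂) (h : W' =ᶠ[𝓝 z] W)
    (ha : a' =ᶠ[𝓝 z] a) (hb : b' =ᶠ[𝓝 z] b) :
    dn σ τ v₁' v₂' W' a' b' z = dn σ τ v₁ v₂ W a b z := by
  unfold dn sta
  rw [sqd_ev hv₁ hv₂ h ha hb, qs_ev hv₁ hv₂ h ha hb, XX_ev σ h ha, XX_ev τ h hb, TH_ev h]

end germ

/-- All coefficients vanish at `z`. -/
structure Q0 (q : Q8 E) (z : E) : Prop where
  κ : q.κ z = 0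
  ζ₁ : q.ζ₁ z = 0
  ζ₂ : q.ζ₂ z = 0
  ζy : q.ζy z = 0
  w₁ : q.w₁ z = 0
  w₂ : q.w₂ z = 0
  wb : q.wb z = 0
  wc : q.wc z = 0

/-- The same coefficients at `z`. -/
structure Qe (p q : Q8 E) (z : E) : Prop where
  κ : p.κ z = q.κ z
  ζ₁ : p.ζ₁ z = q.ζ₁ z
  ζ₂ : p.ζ₂ z = q.ζ₂ z
  ζy : p.ζy z = q.ζy z
  w₁ : p.w₁ z = q.w₁ z
  w₂ : p.w₂ z = q.w₂ z
  wb : p.wb z = q.wb z
  wc : p.wc z = q.wc z

omit [NormedAddCommGroup E] [NormedSpace ℝ E] in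
theorem Qe.rfl {q : Q8 E} {z : E} : Qe q q z := ⟨Eq.refl _, Eq.refl _, Eq.refl _, Eq.refl _,
  Eq.refl _, Eq.refl _, Eq.refl _, Eq.refl _⟩

section dens

variable {σ τ : Sl E ι} {v₁ v₁' v₂ v₂' W W' a a' b b' : E → ℝ} {p q : Q8 E} {z : E}

theorem Q0.dens (h : Q0 q z) : q.dens σ τ v₁ v₂ W a b z = 0 := by
  unfold Q8.dens
  rw [h.κ, h.ζ₁, h.ζ₂, h.ζy, h.w₁, h.w₂, h.wb, h.wc]
  ring

theorem dens_ev (e : Qe p q z) (hv₁ : v₁' =ᶠ[𝓝 z] v₁) (hv₂ : v₂' =ᶠ[𝓝 z] v₂)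
    (h : W' =ᶠ[𝓝 z] W) (ha : a' =ᶠ[𝓝 z] a) (hb : b' =ᶠ[𝓝 z] b) :
    p.dens σ τ v₁' v₂' W' a' b' z = q.dens σ τ v₁ v₂ W a b z := by
  unfold Q8.dens nX nY
  rw [e.κ, e.ζ₁, e.ζ₂, e.ζy, e.w₁, e.w₂, e.wb, e.wc, sqd_ev hv₁ hv₂ h ha hb, XX_ev σ h ha,
    XX_ev τ h hb, ha.eq_of_nhds, hb.eq_of_nhds]

end dens

variable [MeasureSpace E] [FiniteDimensional ℝ E] [BorelSpace E]
  [(volume : Measure E).IsAddHaarMeasure]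

/-- **Localisation of a zone inequality.** -/
theorem zone_loc {σ τ : Sl E ι} {U Ω S : Set E} {θ v₁ v₁' v₂ v₂' W W' χ χ' : E → ℝ}
    {mg mg' co co' : Q8 E} (hU : IsOpen U) (hΩ : IsOpen Ω) (h : Ω ⊆ U) (hS : IsClosed S)
    (hSU : U ∩ S ⊆ Ω) (e₁ : EqOn v₁' v₁ Ω) (e₂ : EqOn v₂' v₂ Ω) (eW : EqOn W' W Ω)
    (eχ : EqOn χ' χ Ω) (em : ∀ z ∈ Ω, Qe mg' mg z) (ec : ∀ z ∈ Ω, Qe co' co z)
    (hχ : ∀ z ∈ U, z ∉ S → χ z = 0) (hm : ∀ z ∈ U, z ∉ S → Q0 mg z)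
    (hc : ∀ z ∈ U, z ∉ S → Q0 co z) (Z : Zone σ τ Ω θ v₁' v₂' W' χ' mg' co') :
    Zone σ τ U θ v₁ v₂ W χ mg co := by
  intro a b ha hb
  obtain ⟨a₁, ta, ea⟩ := ext_te hΩ ha hS hSU
  obtain ⟨b₁, tb, eb⟩ := ext_te hΩ hb hS hSU
  have ev : ∀ {f g : E → ℝ}, EqOn f g Ω → ∀ z ∈ Ω, f =ᶠ[𝓝 z] g := fun hfg z hz => by
    filter_upwards [hΩ.mem_nhds hz] with w hw using hfg hw
  have key := Z a₁ b₁ ta tb
  have k1 : In Ω θ (mg'.dens σ τ v₁' v₂' W' a₁ b₁) = In U θ (mg.dens σ τ v₁ v₂ W a b) := by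
    refine In_loc hU hΩ h (fun z hz => ?_) fun z hz hzΩ =>
      (hm z hz fun hs => hzΩ (hSU ⟨hz, hs⟩)).dens
    by_cases hs : z ∈ S
    · exact dens_ev (em z hz) (ev e₁ z hz) (ev e₂ z hz) (ev eW z hz) (ea z ⟨h hz, hs⟩)
        (eb z ⟨h hz, hs⟩)
    · have q0 := hm z (h hz) hs
      have q0' : Q0 mg' z := by
        have e := em z hz
        exact ⟨e.κ.trans q0.κ, e.ζ₁.trans q0.ζ₁, e.ζ₂.trans q0.ζ₂, e.ζy.trans q0.ζy,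
          e.w₁.trans q0.w₁, e.w₂.trans q0.w₂, e.wb.trans q0.wb, e.wc.trans q0.wc⟩
      rw [q0'.dens, q0.dens]
  have k2 : In Ω θ (co'.dens σ τ v₁' v₂' W' a₁ b₁) = In U θ (co.dens σ τ v₁ v₂ W a b) := by
    refine In_loc hU hΩ h (fun z hz => ?_) fun z hz hzΩ =>
      (hc z hz fun hs => hzΩ (hSU ⟨hz, hs⟩)).dens
    by_cases hs : z ∈ S
    · exact dens_ev (ec z hz) (ev e₁ z hz) (ev e₂ z hz) (ev eW z hz) (ea z ⟨h hz, hs⟩)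
        (eb z ⟨h hz, hs⟩)
    · have q0 := hc z (h hz) hs
      have q0' : Q0 co' z := by
        have e := ec z hz
        exact ⟨e.κ.trans q0.κ, e.ζ₁.trans q0.ζ₁, e.ζ₂.trans q0.ζ₂, e.ζy.trans q0.ζy,
          e.w₁.trans q0.w₁, e.w₂.trans q0.w₂, e.wb.trans q0.wb, e.wc.trans q0.wc⟩
      rw [q0'.dens, q0.dens]
  have k3 : In Ω θ (fun z => χ' z ^ 2 * dn σ τ v₁' v₂' W' a₁ b₁ z) =
      In U θ fun z => χ z ^ 2 * dn σ τ v₁ v₂ W a b z := by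
    refine In_loc hU hΩ h (fun z hz => ?_) fun z hz hzΩ => by
      rw [hχ z hz fun hs => hzΩ (hSU ⟨hz, hs⟩)]
      ring
    rw [eχ hz]
    by_cases hs : z ∈ S
    · rw [dn_ev (ev e₁ z hz) (ev e₂ z hz) (ev eW z hz) (ea z ⟨h hz, hs⟩) (eb z ⟨h hz, hs⟩)]
    · rw [hχ z (h hz) hs]
      ring
  rwa [k1, k2, k3] at key

end Vale.Agent.P088.R2.H808.Z
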